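import Vale.Agent.P279.Transfer

namespace Vale.Agent.Results.P279.SquareMultiple

open Vale.Agent.P279 MvPolynomial

/-- If Nagata's statement holds for `r` points then it holds for `k^2 r` points. -/
theorem result (r k : ℕ) (hk : 1 ≤ k) (h : NagataFor r) : NagataFor (k ^ 2 * r) := by
  have h1 := kummer_transfer r k hk (fun d M => (M : ℝ) < d * Real.sqrt r) (by
    refine h.mono fun p hp d m F hd hF => ?_
    have := hp d m F hd hF
    push_cast
    exact this)
  refine h1.mono fun p hp d m F hd hF => ?_
  have h2 := hp d m F hd hF
  push_cast at h2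
  have h3 : Real.sqrt ((k ^ 2 * r : ℕ) : ℝ) = k * Real.sqrt r := by
    push_cast
    rw [Real.sqrt_mul (by positivity), Real.sqrt_sq (by positivity)]
  rw [h3]
  linarith

end Vale.Agent.Results.P279.SquareMultiple
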