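import Vale.Agent.P279.Uniform

namespace Vale.Agent.Results.P279.UniformReduction

open Vale.Agent.P279 MvPolynomial

/-- Nagata's statement for `r` points (very general tuples, arbitrary multiplicity vectors) is
equivalent to: for all `d, m` with `1 ≤ d ≤ m √r` there is one tuple of `r` distinct points
carrying no curve of degree `d` with multiplicity at least `m` at each of the points. -/
theorem result (r : ℕ) (hr : 1 ≤ r) :
    NagataFor r ↔ ∀ d m : ℕ, 1 ≤ d → (d : ℝ) ≤ m * Real.sqrt r →
      ∃ p : Fin r → Pt, Function.Injective p ∧ ¬ ∃ F, IsCurveThrough p d (fun _ => m) F :=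
  nagataFor_iff_uniform r hr

end Vale.Agent.Results.P279.UniformReduction
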