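import Vale.Agent.Results.P279.SmallDegree
import Vale.Agent.Results.P279.SquareMultiple
import Vale.Agent.Results.P279.UniformReduction

namespace Vale.Agent.Results.P279.A000_Combined

open Vale.Agent.P279 MvPolynomial

theorem result :
    (∀ r : ℕ, 10 ≤ r →
      VeryGeneral r fun p => ∀ (d : ℕ) (m : Fin r → ℕ) (F : MvPolynomial (Fin 3) ℂ),
        1 ≤ d → IsCurveThrough p d m F →
          2 * ∑ i, m i ≤ d * (d + 3) ∧
          (((d : ℝ) + 3 < 2 * Real.sqrt r ∨ ∀ i, m i ≤ 1) →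
            (∑ i, (m i : ℝ)) < d * Real.sqrt r)) ∧
    (∀ r k : ℕ, 1 ≤ k → NagataFor r → NagataFor (k ^ 2 * r)) ∧
    (∀ r : ℕ, 1 ≤ r →
      (NagataFor r ↔ ∀ d m : ℕ, 1 ≤ d → (d : ℝ) ≤ m * Real.sqrt r →
        ∃ p : Fin r → Pt, Function.Injective p ∧ ¬ ∃ F, IsCurveThrough p d (fun _ => m) F)) :=
  ⟨fun r hr => SmallDegree.result r hr, fun r k hk h => SquareMultiple.result r k hk h,
    fun r hr => UniformReduction.result r hr⟩

end Vale.Agent.Results.P279.A000_Combined
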