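import Vale.Agent.P279.SmallDeg

namespace Vale.Agent.Results.P279.SmallDegree

open Vale.Agent.P279 MvPolynomial

lemma two_mul_choose (d : ℕ) : 2 * (d + 2).choose 2 = (d + 2) * (d + 1) := by
  induction d with
  | zero => rfl
  | succ d ih =>
    have h : (d + 1 + 2).choose 2 = (d + 2).choose 1 + (d + 2).choose 2 := by
      rw [show d + 1 + 2 = (d + 2) + 1 from rfl, show (2 : ℕ) = 1 + 1 from rfl,
        Nat.choose_succ_succ]
    rw [h, Nat.choose_one_right, mul_add, ih]
    ring

/-- For `r ≥ 10` very general points, every plane curve of degree `d` with multiplicities at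
least `m i` satisfies `∑ m i ≤ d (d + 3) / 2`; hence Nagata's inequality holds for all curves of
degree `d < 2 √r - 3` (arbitrary multiplicities) and for all multiplicity vectors with entries
at most one (arbitrary degree). -/
theorem result (r : ℕ) (hr : 10 ≤ r) :
    VeryGeneral r fun p => ∀ (d : ℕ) (m : Fin r → ℕ) (F : MvPolynomial (Fin 3) ℂ),
      1 ≤ d → IsCurveThrough p d m F →
        2 * ∑ i, m i ≤ d * (d + 3) ∧
        (((d : ℝ) + 3 < 2 * Real.sqrt r ∨ ∀ i, m i ≤ 1) →
          (∑ i, (m i : ℝ)) < d * Real.sqrt r) := by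
  refine (veryGeneral_sum_lt r).mono fun p hp d m F hd hF => ?_
  have h1 := hp d m F hF
  have h2 := two_mul_choose d
  have h3 : 2 * ∑ i, m i ≤ d * (d + 3) := by nlinarith
  refine ⟨h3, ?_⟩
  have hsq : Real.sqrt r * Real.sqrt r = r := Real.mul_self_sqrt (Nat.cast_nonneg r)
  have hs3 : 3 < Real.sqrt r := by
    rw [show (3 : ℝ) = Real.sqrt 9 by
      rw [show (9 : ℝ) = 3 ^ 2 by norm_num, Real.sqrt_sq (by norm_num)]]
    apply Real.sqrt_lt_sqrt (by norm_num)
    have : (10 : ℝ) ≤ r := by exact_mod_cast hr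
    linarith
  have hd' : (1 : ℝ) ≤ d := by exact_mod_cast hd
  have h3' : 2 * (∑ i, (m i : ℝ)) ≤ d * (d + 3) := by exact_mod_cast h3
  have caseA : (d : ℝ) + 3 < 2 * Real.sqrt r → (∑ i, (m i : ℝ)) < d * Real.sqrt r := by
    intro h
    nlinarith
  rintro (h | h)
  · exact caseA h
  · by_cases hA : (d : ℝ) + 3 < 2 * Real.sqrt r
    · exact caseA hA
    · have hle : (∑ i, (m i : ℝ)) ≤ r := by
        have : (∑ i, (m i : ℝ)) ≤ ∑ _i : Fin r, (1 : ℝ) :=
          Finset.sum_le_sum fun i _ => by exact_mod_cast h i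
        simpa using this
      have hd2 : Real.sqrt r < d := by linarith
      nlinarith

end Vale.Agent.Results.P279.SmallDegree
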